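import Vale.Agent.P154.GD.Ineq2

/-!
# Bonferroni bounds
-/

namespace Vale.Agent.P154.GD

open Finset Filter Topology

/-- truncated binomial expansion -/
noncomputable def bn (d : ℕ) (t : ℝ) (K : ℕ) : ℝ :=
  ∑ k ∈ range (K + 1), (-1) ^ k * (d.choose k : ℝ) * t ^ k

theorem bn_zero (d : ℕ) (t : ℝ) : bn d t 0 = 1 := by simp [bn]

theorem bn_succ (d : ℕ) (t : ℝ) (K : ℕ) :
    bn (d + 1) t (K + 1) = bn d t (K + 1) - t * bn d t K := by
  unfold bn
  rw [Finset.sum_range_succ' _ (K + 1), Finset.sum_range_succ' _ (K + 1), Finset.mul_sum]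
  simp only [Nat.choose_succ_succ, Nat.cast_add, Nat.choose_zero_right]
  have : ∑ k ∈ range (K + 1), (-1 : ℝ) ^ (k + 1) * ((d.choose k : ℝ) + (d.choose (k + 1) : ℝ)) *
      t ^ (k + 1) = ∑ k ∈ range (K + 1), (-1 : ℝ) ^ (k + 1) * (d.choose (k + 1) : ℝ) * t ^ (k + 1)
      - ∑ k ∈ range (K + 1), t * ((-1) ^ k * (d.choose k : ℝ) * t ^ k) := by
    rw [← Finset.sum_sub_distrib]
    refine Finset.sum_congr rfl fun k _ => ?_
    ring
  rw [this]
  ring

/-- Bonferroni inequalities -/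
theorem bonf {t : ℝ} (h0 : 0 ≤ t) (h1 : t ≤ 1) (d : ℕ) :
    ∀ K : ℕ, 0 ≤ (-1) ^ K * (bn d t K - (1 - t) ^ d) := by
  induction d with
  | zero =>
    intro K
    have : bn 0 t K = 1 := by
      unfold bn
      rw [Finset.sum_range_succ' _ K]
      simp
    rw [this]
    simp
  | succ d ih =>
    intro K
    cases K with
    | zero =>
      rw [bn_zero]
      have := pow_le_one₀ (sub_nonneg.2 h1) (by linarith : 1 - t ≤ 1) (n := d + 1)
      simpa using this
    | succ K =>
      rw [bn_succ]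
      have a1 := ih (K + 1)
      have a2 := mul_nonneg h0 (ih K)
      have e : (-1 : ℝ) ^ (K + 1) * (bn d t (K + 1) - t * bn d t K - (1 - t) ^ (d + 1)) =
        (-1) ^ (K + 1) * (bn d t (K + 1) - (1 - t) ^ d) +
          t * ((-1) ^ K * (bn d t K - (1 - t) ^ d)) := by ring
      rw [e]
      exact add_nonneg a1 a2

/-- Horner form of the truncated expansion -/
noncomputable def tH (ε x : ℝ) : ℕ → ℕ → ℝ
  | 0, _ => 1
  | m + 1, j => 1 - (1 - (j + 1) * ε) * x / (j + 2) * tH ε x m (j + 1)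

theorem sum_eq_tH {d : ℕ} (hd : 0 < d) (t : ℝ) (m : ℕ) : ∀ j : ℕ,
    ∑ i ∈ range (m + 1), (-1) ^ i * (d.choose (j + 1 + i) : ℝ) * t ^ (j + 1 + i) =
      (d.choose (j + 1) : ℝ) * t ^ (j + 1) * tH (1 / d) (d * t) m j := by
  have hd0 : (d : ℝ) ≠ 0 := by exact_mod_cast hd.ne'
  induction m with
  | zero => intro j; simp [tH]
  | succ m ih =>
    intro j
    rw [Finset.sum_range_succ']
    have e : ∑ i ∈ range (m + 1), (-1 : ℝ) ^ (i + 1) * (d.choose (j + 1 + (i + 1)) : ℝ) *
        t ^ (j + 1 + (i + 1)) = - ∑ i ∈ range (m + 1), (-1) ^ i *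
          (d.choose (j + 1 + 1 + i) : ℝ) * t ^ (j + 1 + 1 + i) := by
      rw [← Finset.sum_neg_distrib]
      refine Finset.sum_congr rfl fun i _ => ?_
      have : j + 1 + (i + 1) = j + 1 + 1 + i := by ring
      rw [this]
      ring
    rw [e, ih (j + 1)]
    have hc : (d.choose (j + 1 + 1) : ℝ) * (j + 2) = (d.choose (j + 1) : ℝ) * (d - (j + 1)) := by
      have h1 := Nat.choose_succ_right_eq d (j + 1)
      by_cases h : j + 1 ≤ d
      · have h2 : ((d.choose (j + 1 + 1) * (j + 1 + 1) : ℕ) : ℝ) =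
          ((d.choose (j + 1) * (d - (j + 1)) : ℕ) : ℝ) := by rw [h1]
        push_cast [Nat.cast_sub h] at h2
        linarith
      · have h3 : d.choose (j + 1) = 0 := Nat.choose_eq_zero_of_lt (by omega)
        have h4 : d.choose (j + 1 + 1) = 0 := Nat.choose_eq_zero_of_lt (by omega)
        rw [h3, h4]
        simp
    have hc' : (d.choose (j + 1 + 1) : ℝ) =
        (d.choose (j + 1) : ℝ) * (d - (j + 1)) / (j + 2) := by
      have : (j : ℝ) + 2 ≠ 0 := by positivity
      rw [eq_div_iff this, hc]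
    rw [hc']
    simp only [tH, pow_zero, one_mul, add_zero, Nat.cast_add, Nat.cast_one]
    have : (j : ℝ) + 2 ≠ 0 := by positivity
    field_simp
    ring

theorem bn_eq {d : ℕ} (hd : 0 < d) (t : ℝ) (m : ℕ) :
    bn d t (m + 1) = 1 - d * t * tH (1 / d) (d * t) m 0 := by
  unfold bn
  rw [Finset.sum_range_succ' _ (m + 1)]
  have h := sum_eq_tH hd t m 0
  simp only [zero_add, Nat.choose_one_right, pow_one] at h
  rw [← h]
  have e : ∑ k ∈ range (m + 1), (-1 : ℝ) ^ (k + 1) * (d.choose (k + 1) : ℝ) * t ^ (k + 1) =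
      - ∑ i ∈ range (m + 1), (-1) ^ i * (d.choose (1 + i) : ℝ) * t ^ (1 + i) := by
    rw [← Finset.sum_neg_distrib]
    refine Finset.sum_congr rfl fun i _ => ?_
    rw [add_comm 1 i]
    ring
  rw [e]
  simp
  ring

/-- the bounds satisfied by the combination function -/
structure Mode (ε : ℝ) (f : ℝ → ℝ) : Prop where
  nn : 0 ≤ ε
  lt : 49 * ε < 10
  bd : ∀ x, 0 ≤ x → x ≤ 5 → ∀ m : ℕ, 0 ≤ (-1) ^ m * (x * tH ε x m 0 - f x)

theorem mode_dary {d : ℕ} (hd : 5 ≤ d) :
    Mode (1 / d) (fun x => 1 - (1 - x / d) ^ d) where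
  nn := by positivity
  lt := by
    have : (5 : ℝ) ≤ d := by exact_mod_cast hd
    rw [mul_one_div, div_lt_iff₀ (by linarith)]
    linarith
  bd := by
    intro x h0 h5 m
    have hd5 : (5 : ℝ) ≤ d := by exact_mod_cast hd
    have hd0 : (0 : ℝ) < d := by linarith
    have h := bonf (t := x / d) (by positivity) (by rw [div_le_one hd0]; linarith) d (m + 1)
    rw [bn_eq (by omega), mul_div_cancel₀ x hd0.ne'] at h
    refine le_of_le_of_eq h ?_
    ring

theorem continuous_tH (x : ℝ) (m : ℕ) : ∀ j : ℕ, Continuous (fun ε => tH ε x m j) := by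
  induction m with
  | zero => intro j; exact continuous_const
  | succ m ih =>
    intro j
    have := ih (j + 1)
    unfold tH
    fun_prop

theorem mode_poisson : Mode 0 (fun x => 1 - Real.exp (-x)) where
  nn := le_rfl
  lt := by norm_num
  bd := by
    intro x h0 h5 m
    have h1 : ∀ d : ℕ, 5 ≤ d →
        0 ≤ (-1) ^ m * (x * tH (1 / d) x m 0 - (1 - (1 - x / d) ^ d)) :=
      fun d hd => (mode_dary hd).bd x h0 h5 m
    have h2 : Tendsto (fun d : ℕ => (-1 : ℝ) ^ m * (x * tH (1 / d) x m 0 - (1 - (1 - x / d) ^ d)))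
        atTop (𝓝 ((-1) ^ m * (x * tH 0 x m 0 - (1 - Real.exp (-x))))) := by
      have h3 : Tendsto (fun d : ℕ => (1 : ℝ) / d) atTop (𝓝 0) := tendsto_one_div_atTop_nhds_zero_nat
      have h4 : Tendsto (fun d : ℕ => tH (1 / d) x m 0) atTop (𝓝 (tH 0 x m 0)) :=
        ((continuous_tH x m 0).tendsto 0).comp h3
      have h5 : Tendsto (fun d : ℕ => (1 - x / d) ^ d) atTop (𝓝 (Real.exp (-x))) := by
        have := Real.tendsto_one_add_div_pow_exp (-x)
        refine this.congr fun d => ?_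
        rw [neg_div, ← sub_eq_add_neg]
      exact ((h4.const_mul x).sub (h5.const_sub 1)).const_mul _
    exact ge_of_tendsto h2 (eventually_atTop.2 ⟨5, h1⟩)

end Vale.Agent.P154.GD
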