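import Vale.Agent.P154.GD.Data

/-!
# Kernel checks of the pointwise inequalities (part 1)
-/

namespace Vale.Agent.P154.GD

set_option maxRecDepth 100000

theorem ok_ve0_0 : okE ve0_0 = true := by decide +kernel

theorem ok_ve0_1 : okE ve0_1 = true := by decide +kernel

theorem ok_ve1_0 : okE ve1_0 = true := by decide +kernel

theorem ok_ve1_1 : okE ve1_1 = true := by decide +kernel

theorem ok_ve2_0 : okE ve2_0 = true := by decide +kernel

theorem ok_ve2_1 : okE ve2_1 = true := by decide +kernel

theorem ok_ve3_0 : okE ve3_0 = true := by decide +kernel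

theorem ok_ve3_1 : okE ve3_1 = true := by decide +kernel

theorem ok_ve4_0 : okE ve4_0 = true := by decide +kernel

theorem ok_ve4_1 : okE ve4_1 = true := by decide +kernel

end Vale.Agent.P154.GD
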