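import Vale.Agent.P154.GD.Data

/-!
# Kernel checks of the pointwise inequalities (part 2)
-/

namespace Vale.Agent.P154.GD

set_option maxRecDepth 100000

theorem ok_ve5_0 : okE ve5_0 = true := by decide +kernel

theorem ok_ve5_1 : okE ve5_1 = true := by decide +kernel

theorem ok_ve6_0 : okE ve6_0 = true := by decide +kernel

theorem ok_ve6_1 : okE ve6_1 = true := by decide +kernel

theorem ok_ve7_0 : okE ve7_0 = true := by decide +kernel

theorem ok_ve7_1 : okE ve7_1 = true := by decide +kernel

theorem ok_ve8_0 : okE ve8_0 = true := by decide +kernel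

theorem ok_ve8_1 : okE ve8_1 = true := by decide +kernel

theorem ok_ve9_0 : okE ve9_0 = true := by decide +kernel

theorem ok_ve9_1 : okE ve9_1 = true := by decide +kernel

theorem ok_ve10_0 : okE ve10_0 = true := by decide +kernel

theorem ok_ve10_1 : okE ve10_1 = true := by decide +kernel

end Vale.Agent.P154.GD
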