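import Vale.Agent.P154.GD.Data

/-!
# Kernel checks of the pointwise inequalities (part 3)
-/

namespace Vale.Agent.P154.GD

set_option maxRecDepth 100000

theorem ok_ve11_0 : okE ve11_0 = true := by decide +kernel

theorem ok_ve11_1 : okE ve11_1 = true := by decide +kernel

theorem ok_ve12_0 : okE ve12_0 = true := by decide +kernel

theorem ok_ve12_1 : okE ve12_1 = true := by decide +kernel

theorem ok_ve13_0 : okE ve13_0 = true := by decide +kernel

theorem ok_ve13_1 : okE ve13_1 = true := by decide +kernel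

theorem ok_ve14_0 : okE ve14_0 = true := by decide +kernel

theorem ok_ve14_1 : okE ve14_1 = true := by decide +kernel

theorem ok_ve15_0 : okE ve15_0 = true := by decide +kernel

theorem ok_ve15_1 : okE ve15_1 = true := by decide +kernel

theorem ok_ve16_0 : okE ve16_0 = true := by decide +kernel

theorem ok_ve16_1 : okE ve16_1 = true := by decide +kernel

theorem ok_ve17_0 : okE ve17_0 = true := by decide +kernel

theorem ok_ve17_1 : okE ve17_1 = true := by decide +kernel

theorem ok_ve18_0 : okE ve18_0 = true := by decide +kernel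

theorem ok_ve18_1 : okE ve18_1 = true := by decide +kernel

theorem okR1 : tR1.chk (chkI ⟨0, 0, 0, 0, 0, 0⟩ bR1) (25, 25, 16) (10, 9, 9) (1, 1, 1) = true := by
  decide +kernel

theorem okR2 : tR2.chk (chkI ⟨0, 0, 0, 0, 0, 0⟩ bR2) (25, 25, 16) (10, 9, 9) (1, 1, 1) = true := by
  decide +kernel

theorem okR3 : tR3.chk (chkI ⟨0, 0, 0, 0, 0, 0⟩ bR3) (25, 25, 16) (10, 9, 9) (1, 1, 1) = true := by
  decide +kernel

theorem okR4 : tR4.chk (chkI ⟨0, 0, 0, 0, 0, 0⟩ bR4) (25, 25, 16) (10, 9, 9) (1, 1, 1) = true := by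
  decide +kernel

theorem okR5 : tR5.chk (chkI nR5 bR5) (25, 25, 16) (10, 9, 9) (1, 1, 1) = true := by decide +kernel

theorem okR5' : uR5.chk (chkII nR5 (-40200000) (0, 0, 0)) (1, 0, 0) (1, 1, 0) (1, 1, 1) = true := by
  decide +kernel

theorem okR6 : tR6.chk (chkI nR6 bR6) (25, 25, 16) (10, 9, 9) (1, 1, 1) = true := by decide +kernel

end Vale.Agent.P154.GD
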