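import Vale.Agent.P154.GD.Tri

/-!
# The polynomial forms of the certificate
-/

namespace Vale.Agent.P154.GD

open Vale.Agent.P154

section forms

variable {R : Type} [Add R] [Mul R] [Neg R] [Pow R ℕ]

/-- sum of sixth powers -/
def sS (x y z : R) : R := x ^ 6 + y ^ 6 + z ^ 6

/-- second invariant of the sixth powers -/
def sR (k : ℤ → R) (x y z : R) : R :=
  k 3 * ((x ^ 6) ^ 2 + (y ^ 6) ^ 2 + (z ^ 6) ^ 2) + -(sS x y z) ^ 2

/-- third invariant of the sixth powers -/
def sT (k : ℤ → R) (x y z : R) : R :=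
  (k 3 * x ^ 6 + -sS x y z) * (k 3 * y ^ 6 + -sS x y z) * (k 3 * z ^ 6 + -sS x y z)

/-- twice the functional with exponents `(4,1,1)/6` -/
def g1 (k : ℤ → R) (x y z : R) : R :=
  k 2 * sS x y z + -(k 2 * (x * y * z) * (x ^ 3 + y ^ 3 + z ^ 3))

/-- twice the functional with exponents `(3,2,1)/6` -/
def g2 (k : ℤ → R) (x y z : R) : R :=
  k 2 * sS x y z + -(x * y * z * (x * x * y + x * x * z + y * y * x + y * y * z + z * z * x +
    z * z * y))

/-- twice the functional with exponents `(2,2,2)/6` -/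
def g3 (k : ℤ → R) (x y z : R) : R := k 2 * sS x y z + -(k 6 * (x * y * z) ^ 2)

/-- combination of the three functionals -/
def gB (k : ℤ → R) (b : ℤ × ℤ × ℤ) (x y z : R) : R :=
  k b.1 * g1 k x y z + k b.2.1 * g2 k x y z + k b.2.2 * g3 k x y z

/-- coefficients of the intermediate polynomial -/
structure Cf where
  (n1 n2 n3 n4 n5 n6 : ℤ)

/-- first form in terms of the invariants -/
def pI (k : ℤ → R) (n : Cf) (S U T B : R) : R :=
  S * (S * (S * (S * (k n.n1 * U + -(S * B)) + k n.n2 * T) + k n.n3 * (U * U)) +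
    k n.n4 * (U * T)) + (k n.n5 * (U * (U * U)) + k n.n6 * (T * T))

/-- second form in terms of the invariants -/
def pII (k : ℤ → R) (n : Cf) (a : ℤ) (S U T L w v : R) : R :=
  S * (S * (S * (S * (w * w * (w * w) * (S * (L + -(k a * S)) + -(k n.n1 * U))) +
    w * w * (w * v) * (k n.n2 * T)) + -(w * w * (v * v) * (k n.n3 * (U * U)))) +
    w * v * (v * v) * (k n.n4 * (U * T))) +
    -(v * v * (v * v) * (k n.n5 * (U * (U * U)) + k n.n6 * (T * T)))

/-- first form -/
def FI (k : ℤ → R) (n : Cf) (b : ℤ × ℤ × ℤ) (x y z : R) : R :=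
  pI k n (sS x y z) (sR k x y z) (sT k x y z) (gB k b x y z)

/-- second form -/
def FII (k : ℤ → R) (n : Cf) (a : ℤ) (l : ℤ × ℤ × ℤ) (w v x y z : R) : R :=
  pII k n a (sS x y z) (sR k x y z) (sT k x y z) (gB k l x y z) w v

end forms

/-- integers to reals -/
abbrev kR : ℤ → ℝ := fun z => (z : ℝ)

theorem den_FI (v : ℕ → ℝ) (n : Cf) (b : ℤ × ℤ × ℤ) (x y z : PE) :
    PE.den v (FI PE.C n b x y z) = FI kR n b (PE.den v x) (PE.den v y) (PE.den v z) := rfl

theorem den_FII (v : ℕ → ℝ) (n : Cf) (a : ℤ) (l : ℤ × ℤ × ℤ) (w u x y z : PE) :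
    PE.den v (FII PE.C n a l w u x y z) =
      FII kR n a l (PE.den v w) (PE.den v u) (PE.den v x) (PE.den v y) (PE.den v z) := rfl

theorem sS_smul (c x y z : ℝ) : sS (c * x) (c * y) (c * z) = c ^ 6 * sS x y z := by
  unfold sS; ring

theorem sR_smul (c x y z : ℝ) : sR kR (c * x) (c * y) (c * z) = c ^ 12 * sR kR x y z := by
  unfold sR; rw [sS_smul]; ring

theorem sT_smul (c x y z : ℝ) : sT kR (c * x) (c * y) (c * z) = c ^ 18 * sT kR x y z := by
  unfold sT; rw [sS_smul]; ring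

theorem gB_smul (b : ℤ × ℤ × ℤ) (c x y z : ℝ) :
    gB kR b (c * x) (c * y) (c * z) = c ^ 6 * gB kR b x y z := by
  unfold gB g1 g2 g3; rw [sS_smul]; ring

theorem FI_smul (n : Cf) (b : ℤ × ℤ × ℤ) (c x y z : ℝ) :
    FI kR n b (c * x) (c * y) (c * z) = c ^ 36 * FI kR n b x y z := by
  unfold FI; rw [sS_smul, sR_smul, sT_smul, gB_smul]; unfold pI; ring

theorem FII_smul (n : Cf) (a : ℤ) (l : ℤ × ℤ × ℤ) (w v c x y z : ℝ) :
    FII kR n a l w v (c * x) (c * y) (c * z) = c ^ 36 * FII kR n a l w v x y z := by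
  unfold FII; rw [sS_smul, sR_smul, sT_smul, gB_smul]; unfold pII; ring

/-- linear form with integer coefficients -/
def lf (a b c : ℕ) : PE := PE.C (Int.ofNat a) * PE.X 0 + PE.C (Int.ofNat b) * PE.X 1 +
  PE.C (Int.ofNat c)

/-- kernel check with an automatic number of bits -/
def kc (k n R : ℕ) (F : PE) : Bool := PE.kcheck k n (Nat.log2 (2 * PE.l1 F)) R F

/-- check of the first form on a cone -/
def chkI (n : Cf) (b : ℤ × ℤ × ℤ) (A B C : V3) : Bool :=
  kc 2 0 37 (FI PE.C n b (lf A.1 B.1 C.1) (lf A.2.1 B.2.1 C.2.1) (lf A.2.2 B.2.2 C.2.2))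

/-- check of the second form on a cone -/
def chkII (n : Cf) (a : ℤ) (l : ℤ × ℤ × ℤ) (A B C : V3) : Bool :=
  kc 2 1 37 (FII PE.C n a l (PE.C 20 * (PE.C 1 + PE.X 2)) (PE.C 9 * PE.X 2)
    (lf A.1 B.1 C.1) (lf A.2.1 B.2.1 C.2.1) (lf A.2.2 B.2.2 C.2.2))

theorem den_lf (v : ℕ → ℝ) (a b c : ℕ) : PE.den v (lf a b c) = a * v 0 + b * v 1 + c := by
  unfold lf
  simp only [PE.den_add, PE.den_mul, PE.den_C, PE.den_X]
  simp

theorem chkI_sound (n : Cf) (b : ℤ × ℤ × ℤ) (A B C : V3) (h : chkI n b A B C = true) :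
    Cone (fun x y z => 0 ≤ FI kR n b x y z) A B C := by
  intro p q r hp hq hr
  have h1 := PE.den_nonneg_of_kcheck (fun i => if i = 0 then p / r else q / r) 2 0 _ 37
    (by intro i _; split_ifs <;> positivity) _ h
  rw [den_FI] at h1
  simp only [den_lf] at h1
  have e : ∀ s t u : ℕ, p * (s : ℝ) + q * t + r * u = r * (s * (p / r) + t * (q / r) + u) := by
    intro s t u; field_simp
  simp only [e]
  rw [FI_smul]
  exact mul_nonneg (by positivity) (by simpa using h1)

theorem chkII_sound (n : Cf) (a : ℤ) (l : ℤ × ℤ × ℤ) (A B C : V3)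
    (h : chkII n a l A B C = true) :
    Cone (fun x y z => ∀ ζ : ℝ, 0 ≤ ζ → 0 ≤ FII kR n a l (20 * (1 + ζ)) (9 * ζ) x y z) A B C := by
  intro p q r hp hq hr ζ hζ
  have h1 := PE.den_nonneg_of_kcheck
    (fun i => if i = 0 then p / r else if i = 1 then q / r else ζ) 2 1 _ 37
    (by intro i _; split_ifs <;> positivity) _ h
  rw [den_FII] at h1
  simp only [den_lf, PE.den_mul, PE.den_add, PE.den_C, PE.den_X] at h1
  have e : ∀ s t u : ℕ, p * (s : ℝ) + q * t + r * u = r * (s * (p / r) + t * (q / r) + u) := by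
    intro s t u; field_simp
  simp only [e]
  rw [FII_smul]
  exact mul_nonneg (by positivity) (by simpa using h1)

end Vale.Agent.P154.GD
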