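import Vale.Agent.P154.GD.Data

/-!
# The scalar inequality: polynomial form
-/

namespace Vale.Agent.P154.GD

open Vale.Agent.P154

section forms

variable {R : Type} [Add R] [Mul R] [Neg R] [Pow R ℕ]

/-- denominators -/
def dH (k : ℤ → R) (Q : R) : ℕ → ℕ → R
  | 0, _ => k 1
  | m + 1, j => k (Int.ofNat (49 * (j + 2))) * Q * dH k Q m (j + 1)

/-- numerators -/
def nH (k : ℤ → R) (Q V Z X : R) : ℕ → ℕ → R
  | 0, _ => k 1
  | m + 1, j => k (Int.ofNat (49 * (j + 2))) * Q * dH k Q m (j + 1) +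
      -((k 49 * V + -(k (Int.ofNat (10 * (j + 1))) * Z)) * X * nH k Q V Z X m (j + 1))

/-- bilinear interpolation -/
def itp (k : ℤ → R) (c00 c10 c01 c11 : ℤ) (z1 z2 : R) : R :=
  (k c00 + k c10 * z1) + z2 * (k c01 + k c11 * z1)

/-- the polynomial form of the scalar inequality in terms of its building blocks -/
def F2a (k : ℤ → R) (K : ℕ) (cst : ℤ) (A B1 B2 B3 X V W1 W3 W4 X3 X4 N1 N0 N2 : R) : R :=
  k cst * V ^ K * k (10 ^ (6 * (K + 1))) * W1 ^ K * W3 ^ (K + 1) * W4 ^ (K + 1) *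
    (A * k (10 ^ 6) * W1 * W3 * W4 + B3 * X * k 1000 * W3 * W4 + B1 * (X * X3) * W4 +
      B2 * (X * X4) * W3 + -(k 5000 * X ^ 2 * V * W3 * W4)) +
  (-(k lamZ.1 * (X * X3) * N1 * W4 ^ (K + 2)) +
   -(k lamZ.2.2 * X * N0 * k (10 ^ (3 * (K + 2))) * W3 ^ (K + 2) * W4 ^ (K + 2)) +
   -(k lamZ.2.1 * (X * X4) * N2 * k (Int.ofNat (49 * (K + 2))) * V *
      (k (10 ^ 6) * W1 * W4) * W3 ^ (K + 2)))

/-- the polynomial form of the scalar inequality, `K + 2` and `K + 1` terms -/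
def F2 (k : ℤ → R) (K : ℕ) (cst : ℤ) (u v : Vx) (z1 z2 z3 z4 : R) : R :=
  F2a k K cst (itp k u.e0.a v.e0.a u.e1.a v.e1.a z1 z2)
    (itp k u.e0.b.1 v.e0.b.1 u.e1.b.1 v.e1.b.1 z1 z2)
    (itp k u.e0.b.2.1 v.e0.b.2.1 u.e1.b.2.1 v.e1.b.2.1 z1 z2)
    (itp k u.e0.b.2.2 v.e0.b.2.2 u.e1.b.2.2 v.e1.b.2.2 z1 z2)
    (k (Int.ofNat u.s) + k (Int.ofNat v.s) * z1) (k 1 + z2) (k 1 + z1) (k 1 + z3) (k 1 + z4)
    (k 737 + k 761 * z3) (k 901 + k 924 * z4)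
    (nH k ((k 1 + z2) * (k (10 ^ 6) * (k 1 + z1) * (k 1 + z3))) (k 1 + z2) z2
      ((k (Int.ofNat u.s) + k (Int.ofNat v.s) * z1) * (k 737 + k 761 * z3)) (K + 1) 0)
    (nH k ((k 1 + z2) * (k 1000 * (k 1 + z1))) (k 1 + z2) z2
      (k (Int.ofNat u.s) + k (Int.ofNat v.s) * z1) (K + 1) 0)
    (nH k ((k 1 + z2) * (k (10 ^ 6) * (k 1 + z1) * (k 1 + z4))) (k 1 + z2) z2
      ((k (Int.ofNat u.s) + k (Int.ofNat v.s) * z1) * (k 901 + k 924 * z4)) K 0)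

end forms

theorem den_dH (v : ℕ → ℝ) (Q : PE) (m j : ℕ) :
    PE.den v (dH PE.C Q m j) = dH kR (PE.den v Q) m j := by
  induction m generalizing j with
  | zero => rfl
  | succ m ih =>
    unfold dH
    rw [PE.den_mul, PE.den_mul, ih]
    rfl

theorem den_nH (v : ℕ → ℝ) (Q V Z X : PE) (m j : ℕ) :
    PE.den v (nH PE.C Q V Z X m j) =
      nH kR (PE.den v Q) (PE.den v V) (PE.den v Z) (PE.den v X) m j := by
  induction m generalizing j with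
  | zero => rfl
  | succ m ih =>
    unfold nH
    simp only [PE.den_mul, PE.den_add, PE.den_neg, ih, den_dH]
    rfl

theorem den_F2 (v : ℕ → ℝ) (K : ℕ) (cst : ℤ) (u w : Vx) (z1 z2 z3 z4 : PE) :
    PE.den v (F2 PE.C K cst u w z1 z2 z3 z4) =
      F2 kR K cst u w (PE.den v z1) (PE.den v z2) (PE.den v z3) (PE.den v z4) := by
  unfold F2 F2a
  simp only [PE.den_mul, PE.den_add, PE.den_neg, PE.den_pow, den_nH]
  rfl

/-- kernel check of the scalar inequality on one interval -/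
def chk2 (K : ℕ) (cst : ℤ) (u v : Vx) : Bool :=
  kc 2 2 (2 * (K + 2)) (F2 PE.C K cst u v (PE.X 0) (PE.X 1) (PE.X 2) (PE.X 3))

theorem chk2_sound {K : ℕ} {cst : ℤ} {u v : Vx} (h : chk2 K cst u v = true) {z1 z2 z3 z4 : ℝ}
    (h1 : 0 ≤ z1) (h2 : 0 ≤ z2) (h3 : 0 ≤ z3) (h4 : 0 ≤ z4) :
    0 ≤ F2 kR K cst u v z1 z2 z3 z4 := by
  have h5 := PE.den_nonneg_of_kcheck
    (fun i => if i = 0 then z1 else if i = 1 then z2 else if i = 2 then z3 else z4) 2 2 _ (2 * (K + 2))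
    (by intro i _; split_ifs <;> assumption) _ h
  rw [den_F2] at h5
  simp only [PE.den_X] at h5
  simpa using h5

end Vale.Agent.P154.GD
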