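import Vale.Agent.P154.GD.Data

/-!
# Pointwise inequalities from the forms
-/

namespace Vale.Agent.P154.GD

open Vale.Agent.P154

/-! ### symmetry -/

theorem sym3 {Q : ℝ → ℝ → ℝ → Prop} (h01 : ∀ a b c, Q a b c → Q b a c)
    (h12 : ∀ a b c, Q a b c → Q a c b) (hs : ∀ a b c, b ≤ a → c ≤ b → Q a b c) (a b c : ℝ) :
    Q a b c := by
  rcases le_total a b with hab | hab <;> rcases le_total b c with hbc | hbc <;>
    rcases le_total a c with hac | hac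
  · exact h01 _ _ _ (h12 _ _ _ (h01 _ _ _ (hs c b a hbc hab)))
  · exact h01 _ _ _ (h12 _ _ _ (h01 _ _ _ (hs c b a hbc hab)))
  · exact h01 _ _ _ (h12 _ _ _ (hs b c a hbc hac))
  · exact h01 _ _ _ (hs b a c hab hac)
  · exact h12 _ _ _ (h01 _ _ _ (hs c a b hac hab))
  · exact h12 _ _ _ (hs a c b hac hbc)
  · exact hs a b c hab hbc
  · exact hs a b c hab hbc

theorem sS_01 (x y z : ℝ) : sS y x z = sS x y z := by unfold sS; ring
theorem sS_12 (x y z : ℝ) : sS x z y = sS x y z := by unfold sS; ring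
theorem sR_01 (x y z : ℝ) : sR kR y x z = sR kR x y z := by unfold sR; rw [sS_01]; ring
theorem sR_12 (x y z : ℝ) : sR kR x z y = sR kR x y z := by unfold sR; rw [sS_12]; ring
theorem sT_01 (x y z : ℝ) : sT kR y x z = sT kR x y z := by unfold sT; rw [sS_01]; ring
theorem sT_12 (x y z : ℝ) : sT kR x z y = sT kR x y z := by unfold sT; rw [sS_12]; ring
theorem gB_01 (b : ℤ × ℤ × ℤ) (x y z : ℝ) : gB kR b y x z = gB kR b x y z := by
  unfold gB g1 g2 g3; rw [sS_01]; ring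
theorem gB_12 (b : ℤ × ℤ × ℤ) (x y z : ℝ) : gB kR b x z y = gB kR b x y z := by
  unfold gB g1 g2 g3; rw [sS_12]; ring
theorem FI_01 (n : Cf) (b : ℤ × ℤ × ℤ) (x y z : ℝ) : FI kR n b y x z = FI kR n b x y z := by
  unfold FI; rw [sS_01, sR_01, sT_01, gB_01]
theorem FI_12 (n : Cf) (b : ℤ × ℤ × ℤ) (x y z : ℝ) : FI kR n b x z y = FI kR n b x y z := by
  unfold FI; rw [sS_12, sR_12, sT_12, gB_12]
theorem FII_01 (n : Cf) (a : ℤ) (l : ℤ × ℤ × ℤ) (w v x y z : ℝ) :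
    FII kR n a l w v y x z = FII kR n a l w v x y z := by
  unfold FII; rw [sS_01, sR_01, sT_01, gB_01]
theorem FII_12 (n : Cf) (a : ℤ) (l : ℤ × ℤ × ℤ) (w v x y z : ℝ) :
    FII kR n a l w v x z y = FII kR n a l w v x y z := by
  unfold FII; rw [sS_12, sR_12, sT_12, gB_12]

/-! ### the domain of the messages -/

/-- polynomial form of the chord inequality -/
def chordPE : PE :=
  PE.C 31 * (PE.C 65 * (PE.C 25 * PE.X 0 + PE.X 1) + PE.C 25 * (PE.C 16 * PE.X 0 + PE.X 1)) ^ 6 +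
    -(PE.C (29 * 81 ^ 6) * ((PE.C 25 * PE.X 0 + PE.X 1) ^ 6 + (PE.C 16 * PE.X 0 + PE.X 1) ^ 6)) +
    -((PE.C 16 * PE.X 0 + PE.X 1) ^ 6)

theorem chord_ok : kc 2 0 7 chordPE = true := by decide +kernel

theorem chord {y0 y1 y2 : ℝ} (h0 : 0 < y2) (h1 : y2 ≤ y1) (h2 : y1 ≤ y0)
    (hd : 60 * y0 ^ 6 ≤ 29 * sS y0 y1 y2) : 81 * y0 < 65 * y1 + 25 * y2 := by
  have p1 : 0 < y1 := lt_of_lt_of_le h0 h1
  have p0 : 0 < y0 := lt_of_lt_of_le p1 h2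
  unfold sS at hd
  have q1 : y1 ^ 6 ≤ y0 ^ 6 := pow_le_pow_left₀ p1.le h2 6
  have q2 : 0 < y2 ^ 6 := by positivity
  have r1 : y1 ≤ 25 / 16 * y2 := by
    by_contra hc
    push Not at hc
    have := pow_lt_pow_left₀ hc (by positivity) (n := 6) (by norm_num)
    rw [mul_pow] at this
    have h3 : ((25 : ℝ) / 16) ^ 6 = 244140625 / 16777216 := by norm_num
    rw [h3] at this
    linarith
  by_contra hc
  push Not at hc
  have h3 : (65 * y1 + 25 * y2) ^ 6 ≤ (81 * y0) ^ 6 := pow_le_pow_left₀ (by positivity) hc 6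
  have h4 := PE.den_nonneg_of_kcheck
    (fun i => if i = 0 then (y1 - y2) / 9 else (25 * y2 - 16 * y1) / 9) 2 0 _ 7
    (by intro i _
        split_ifs
        · exact div_nonneg (by linarith) (by norm_num)
        · exact div_nonneg (by linarith) (by norm_num)) _ chord_ok
  unfold chordPE at h4
  simp only [PE.den_add, PE.den_mul, PE.den_neg, PE.den_pow, PE.den_C, PE.den_X, if_true,
    one_ne_zero, if_false] at h4
  have e1 : ((25 : ℤ) : ℝ) * ((y1 - y2) / 9) + (25 * y2 - 16 * y1) / 9 = y1 := by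
    push_cast; ring
  have e2 : ((16 : ℤ) : ℝ) * ((y1 - y2) / 9) + (25 * y2 - 16 * y1) / 9 = y2 := by
    push_cast; ring
  rw [e1, e2] at h4
  push_cast at h4
  rw [mul_pow] at h3
  nlinarith

theorem FI_nonneg {n : Cf} {b : ℤ × ℤ × ℤ} {t : Tri}
    (h : t.chk (chkI n b) (25, 25, 16) (10, 9, 9) (1, 1, 1) = true) :
    ∀ y0 y1 y2 : ℝ, 0 < y0 → 0 < y1 → 0 < y2 → 60 * y0 ^ 6 ≤ 29 * sS y0 y1 y2 →
      60 * y1 ^ 6 ≤ 29 * sS y0 y1 y2 → 60 * y2 ^ 6 ≤ 29 * sS y0 y1 y2 →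
      0 ≤ FI kR n b y0 y1 y2 := by
  refine sym3 (Q := fun y0 y1 y2 => 0 < y0 → 0 < y1 → 0 < y2 → 60 * y0 ^ 6 ≤ 29 * sS y0 y1 y2 →
      60 * y1 ^ 6 ≤ 29 * sS y0 y1 y2 → 60 * y2 ^ 6 ≤ 29 * sS y0 y1 y2 →
      0 ≤ FI kR n b y0 y1 y2) ?_ ?_ ?_
  · intro a b c h1 p q r d1 d2 d3
    rw [sS_01] at d1 d2 d3
    rw [FI_01]
    exact h1 q p r d2 d1 d3
  · intro a b c h1 p q r d1 d2 d3
    rw [sS_12] at d1 d2 d3
    rw [FI_12]
    exact h1 p r q d1 d3 d2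
  · intro y0 y1 y2 s1 s2 p0 p1 p2 d1 d2 d3
    have hc := chord p2 s2 s1 d1
    have h3 := Tri.sound (chkI_sound n b) t _ _ _ h ((y1 - y2) / 9) (y0 - y1)
      ((25 * y2 + 65 * y1 - 81 * y0) / 9) (div_nonneg (by linarith) (by norm_num)) (by linarith)
      (div_pos (by linarith) (by norm_num))
    have e1 : (y1 - y2) / 9 * ((25 : ℕ) : ℝ) + (y0 - y1) * ((10 : ℕ) : ℝ) +
        (25 * y2 + 65 * y1 - 81 * y0) / 9 * ((1 : ℕ) : ℝ) = y0 := by push_cast; ring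
    have e2 : (y1 - y2) / 9 * ((25 : ℕ) : ℝ) + (y0 - y1) * ((9 : ℕ) : ℝ) +
        (25 * y2 + 65 * y1 - 81 * y0) / 9 * ((1 : ℕ) : ℝ) = y1 := by push_cast; ring
    have e3 : (y1 - y2) / 9 * ((16 : ℕ) : ℝ) + (y0 - y1) * ((9 : ℕ) : ℝ) +
        (25 * y2 + 65 * y1 - 81 * y0) / 9 * ((1 : ℕ) : ℝ) = y2 := by push_cast; ring
    rw [e1, e2, e3] at h3
    exact h3

theorem FII_nonneg {n : Cf} {a : ℤ} {l : ℤ × ℤ × ℤ} {t : Tri}
    (h : t.chk (chkII n a l) (1, 0, 0) (1, 1, 0) (1, 1, 1) = true) {κ : ℝ} (hκ : 0 ≤ κ)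
    (hκ' : κ < 9 / 20) :
    ∀ x0 x1 x2 : ℝ, 0 < x0 → 0 < x1 → 0 < x2 → 0 ≤ FII kR n a l 1 κ x0 x1 x2 := by
  refine sym3 (Q := fun x0 x1 x2 => 0 < x0 → 0 < x1 → 0 < x2 → 0 ≤ FII kR n a l 1 κ x0 x1 x2)
    ?_ ?_ ?_
  · intro a b c h1 p q r
    rw [FII_01]
    exact h1 q p r
  · intro a b c h1 p q r
    rw [FII_12]
    exact h1 p r q
  · intro x0 x1 x2 s1 s2 p0 p1 p2
    have h9 : 0 < 9 - 20 * κ := by linarith
    have h3 := Tri.sound (chkII_sound n a l) t _ _ _ h (x0 - x1) (x1 - x2) x2 (by linarith)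
      (by linarith) p2 (20 * κ / (9 - 20 * κ)) (div_nonneg (by linarith) h9.le)
    have e1 : (x0 - x1) * ((1 : ℕ) : ℝ) + (x1 - x2) * ((1 : ℕ) : ℝ) + x2 * ((1 : ℕ) : ℝ) = x0 := by
      push_cast; ring
    have e2 : (x0 - x1) * ((0 : ℕ) : ℝ) + (x1 - x2) * ((1 : ℕ) : ℝ) + x2 * ((1 : ℕ) : ℝ) = x1 := by
      push_cast; ring
    have e3 : (x0 - x1) * ((0 : ℕ) : ℝ) + (x1 - x2) * ((0 : ℕ) : ℝ) + x2 * ((1 : ℕ) : ℝ) = x2 := by
      push_cast; ring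
    rw [e1, e2, e3] at h3
    have e4 : 20 * (1 + 20 * κ / (9 - 20 * κ)) = 180 / (9 - 20 * κ) := by
      field_simp; ring
    have e5 : 9 * (20 * κ / (9 - 20 * κ)) = 180 / (9 - 20 * κ) * κ := by
      field_simp; ring
    rw [e4, e5] at h3
    set c := 180 / (9 - 20 * κ) with hc
    have hc0 : 0 < c := div_pos (by norm_num) h9
    have e6 : FII kR n a l c (c * κ) x0 x1 x2 = c ^ 4 * FII kR n a l 1 κ x0 x1 x2 := by
      unfold FII pII; ring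
    rw [e6] at h3
    exact nonneg_of_mul_nonneg_right h3 (by positivity)

/-- relation between the roots of a likelihood vector and of the message sent by it -/
structure Link (κ x0 x1 x2 y0 y1 y2 : ℝ) : Prop where
  x0p : 0 < x0
  x1p : 0 < x1
  x2p : 0 < x2
  y0p : 0 < y0
  y1p : 0 < y1
  y2p : 0 < y2
  e0 : y0 ^ 6 = (1 + κ) / 3 * sS x0 x1 x2 - κ * x0 ^ 6
  e1 : y1 ^ 6 = (1 + κ) / 3 * sS x0 x1 x2 - κ * x1 ^ 6
  e2 : y2 ^ 6 = (1 + κ) / 3 * sS x0 x1 x2 - κ * x2 ^ 6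

variable {κ x0 x1 x2 y0 y1 y2 : ℝ}

theorem Link.sS (h : Link κ x0 x1 x2 y0 y1 y2) : sS y0 y1 y2 = sS x0 x1 x2 := by
  have : GD.sS y0 y1 y2 = y0 ^ 6 + y1 ^ 6 + y2 ^ 6 := rfl
  rw [this, h.e0, h.e1, h.e2]
  unfold GD.sS
  ring

theorem Link.sR (h : Link κ x0 x1 x2 y0 y1 y2) :
    sR kR y0 y1 y2 = κ ^ 2 * sR kR x0 x1 x2 := by
  unfold GD.sR
  rw [h.sS, h.e0, h.e1, h.e2]
  unfold GD.sS
  push_cast
  ring

theorem Link.sT (h : Link κ x0 x1 x2 y0 y1 y2) :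
    sT kR y0 y1 y2 = -κ ^ 3 * sT kR x0 x1 x2 := by
  unfold GD.sT
  rw [h.sS, h.e0, h.e1, h.e2]
  unfold GD.sS
  push_cast
  ring

theorem Link.pos (h : Link κ x0 x1 x2 y0 y1 y2) : 0 < GD.sS x0 x1 x2 := by
  have h0 := h.x0p
  have h1 := h.x1p
  have h2 := h.x2p
  unfold GD.sS
  positivity

theorem Link.FI_nonneg (h : Link κ x0 x1 x2 y0 y1 y2) (hκ : 0 < κ) (hκ' : κ < 9 / 20)
    {n : Cf} {b : ℤ × ℤ × ℤ} {t : Tri}
    (ht : t.chk (chkI n b) (25, 25, 16) (10, 9, 9) (1, 1, 1) = true) :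
    0 ≤ FI kR n b y0 y1 y2 := by
  have hS := h.pos
  have key : ∀ x : ℝ, 0 < x →
      60 * ((1 + κ) / 3 * GD.sS x0 x1 x2 - κ * x ^ 6) ≤ 29 * GD.sS y0 y1 y2 := by
    intro x hx
    rw [h.sS]
    have : 0 < κ * x ^ 6 := by positivity
    nlinarith
  refine GD.FI_nonneg ht y0 y1 y2 h.y0p h.y1p h.y2p ?_ ?_ ?_
  · rw [h.e0]; exact key _ h.x0p
  · rw [h.e1]; exact key _ h.x1p
  · rw [h.e2]; exact key _ h.x2p

/-- the pointwise inequality -/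
theorem Link.main (h : Link κ x0 x1 x2 y0 y1 y2) (hκ : 0 < κ) (hκ' : κ < 9 / 20)
    {n : Cf} {b l : ℤ × ℤ × ℤ} {a : ℤ} {t1 t2 : Tri}
    (h1 : t1.chk (chkI n b) (25, 25, 16) (10, 9, 9) (1, 1, 1) = true)
    (h2 : t2.chk (chkII n a l) (1, 0, 0) (1, 1, 0) (1, 1, 1) = true) :
    gB kR b y0 y1 y2 ≤ κ ^ 2 * (gB kR l x0 x1 x2 - a * GD.sS x0 x1 x2) := by
  have k1 := h.FI_nonneg hκ hκ' h1
  have k2 := FII_nonneg h2 hκ.le hκ' x0 x1 x2 h.x0p h.x1p h.x2p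
  have hS := h.pos
  unfold FI at k1
  unfold FII at k2
  rw [h.sS, h.sR, h.sT] at k1
  set S := GD.sS x0 x1 x2
  set U := GD.sR kR x0 x1 x2
  set T := GD.sT kR x0 x1 x2
  set B := gB kR b y0 y1 y2
  set L := gB kR l x0 x1 x2
  unfold pI at k1
  unfold pII at k2
  have k3 : 0 ≤ S ^ 5 * (κ ^ 2 * (L - a * S) - B) := by
    have := mul_nonneg (sq_nonneg κ) k2
    have h4 : S ^ 5 * (κ ^ 2 * (L - a * S) - B) =
      (S * (S * (S * (S * (kR n.n1 * (κ ^ 2 * U) + -(S * B)) + kR n.n2 * (-κ ^ 3 * T)) +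
        kR n.n3 * (κ ^ 2 * U * (κ ^ 2 * U))) + kR n.n4 * (κ ^ 2 * U * (-κ ^ 3 * T))) +
        (kR n.n5 * (κ ^ 2 * U * (κ ^ 2 * U * (κ ^ 2 * U))) +
          kR n.n6 * (-κ ^ 3 * T * (-κ ^ 3 * T)))) +
      κ ^ 2 * (S * (S * (S * (S * (1 * 1 * (1 * 1) * (S * (L + -(kR a * S)) + -(kR n.n1 * U))) +
        1 * 1 * (1 * κ) * (kR n.n2 * T)) + -(1 * 1 * (κ * κ) * (kR n.n3 * (U * U)))) +
        1 * κ * (κ * κ) * (kR n.n4 * (U * T))) +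
        -(κ * κ * (κ * κ) * (kR n.n5 * (U * (U * U)) + kR n.n6 * (T * T)))) := by
      ring
    rw [h4]
    exact add_nonneg k1 this
  have k4 := nonneg_of_mul_nonneg_right k3 (by positivity)
  linarith

/-- inequalities between the functionals of a message -/
theorem Link.ratio (h : Link κ x0 x1 x2 y0 y1 y2) (hκ : 0 < κ) (hκ' : κ < 9 / 20)
    {b : ℤ × ℤ × ℤ} {t : Tri}
    (h1 : t.chk (chkI ⟨0, 0, 0, 0, 0, 0⟩ b) (25, 25, 16) (10, 9, 9) (1, 1, 1) = true) :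
    gB kR b y0 y1 y2 ≤ 0 := by
  have k1 := h.FI_nonneg hκ hκ' h1
  have hS := h.pos
  unfold FI at k1
  rw [h.sS] at k1
  unfold pI at k1
  simp only [kR, Int.cast_zero, zero_mul, add_zero, zero_add] at k1
  have k3 : 0 ≤ GD.sS x0 x1 x2 ^ 5 * -gB kR b y0 y1 y2 := by
    have e : GD.sS x0 x1 x2 ^ 5 * -gB kR b y0 y1 y2 =
      GD.sS x0 x1 x2 * (GD.sS x0 x1 x2 * (GD.sS x0 x1 x2 * (GD.sS x0 x1 x2 *
        -(GD.sS x0 x1 x2 * gB kR b y0 y1 y2)))) := by ring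
    rw [e]; exact k1
  have k4 := nonneg_of_mul_nonneg_right k3 (by positivity)
  linarith

end Vale.Agent.P154.GD
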