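import Vale.Agent.P154.Mono
import Vale.Agent.P154.GD.Point

/-!
# Functionals of a three state experiment
-/

namespace Vale.Agent.P154.GD

open Finset Vale.Agent.P154 Vale.Agent.P154.Up

/-- explicit sum over the permutations of three points -/
noncomputable def S6 (f : ℝ → ℝ → ℝ → ℝ) (a b c : ℝ) : ℝ :=
  f a b c + f a c b + f b a c + f b c a + f c a b + f c b a

theorem sum_perm_three (f : ℝ → ℝ → ℝ → ℝ) (w : Fin 3 → ℝ) :
    ∑ σ : Equiv.Perm (Fin 3), f (w (σ 0)) (w (σ 1)) (w (σ 2)) = S6 f (w 0) (w 1) (w 2) := by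
  have h3 : ∀ g : Equiv.Perm (Fin 3) → ℝ, ∑ σ : Equiv.Perm (Fin 3), g σ =
      ∑ i : Fin 3, ∑ τ : Equiv.Perm (Fin 2), g (Equiv.Perm.decomposeFin.symm (i, τ)) := by
    intro g
    rw [← Equiv.sum_comp Equiv.Perm.decomposeFin.symm g, Fintype.sum_prod_type]
  have h2 : ∀ g : Equiv.Perm (Fin 2) → ℝ, ∑ σ : Equiv.Perm (Fin 2), g σ =
      ∑ i : Fin 2, ∑ τ : Equiv.Perm (Fin 1), g (Equiv.Perm.decomposeFin.symm (i, τ)) := by
    intro g
    rw [← Equiv.sum_comp Equiv.Perm.decomposeFin.symm g, Fintype.sum_prod_type]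
  have h1 : ∀ g : Equiv.Perm (Fin 1) → ℝ, ∑ σ : Equiv.Perm (Fin 1), g σ = g 1 := by
    intro g
    rw [Fintype.sum_unique]
    rfl
  rw [h3]
  simp only [h2, h1, Fin.sum_univ_succ, Fin.sum_univ_zero, add_zero]
  have key : ∀ (i : Fin 3) (j : Fin 2),
      f (w ((Equiv.Perm.decomposeFin.symm (i, Equiv.Perm.decomposeFin.symm
        (j, 1))) 0))
        (w ((Equiv.Perm.decomposeFin.symm (i, Equiv.Perm.decomposeFin.symm
        (j, 1))) 1))
        (w ((Equiv.Perm.decomposeFin.symm (i, Equiv.Perm.decomposeFin.symm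
        (j, 1))) 2)) = f (w i) (w (Equiv.swap 0 i (Fin.succ j)))
        (w (Equiv.swap 0 i (Fin.succ (Equiv.swap 0 j (Fin.succ 0))))) := by
    intro i j
    fin_cases i <;> fin_cases j <;> rfl
  simp only [key]
  unfold S6
  simp only [Equiv.swap_apply_def]
  simp (config := {decide := true}) only [if_true, if_false]
  have e1 : (Fin.succ 0 : Fin 3) = 1 := rfl
  have e2 : (Fin.succ 0 : Fin 2) = 1 := rfl
  have e3 : (Fin.succ 1 : Fin 3) = 2 := rfl
  simp only [e1, e2, e3]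
  ring

theorem card_perm_three : (Fintype.card (Equiv.Perm (Fin 3)) : ℝ) = 6 := by
  rw [Fintype.card_perm, Fintype.card_fin]
  norm_num [Nat.factorial]

theorem mt_three (i j k : ℕ) (w : Fin 3 → ℝ) :
    mt ![i, j, k] w = 1 / 6 * S6 (fun x y z => x ^ i * y ^ j * z ^ k) (w 0) (w 1) (w 2) := by
  unfold mt
  rw [card_perm_three, ← sum_perm_three]
  congr 1
  refine Finset.sum_congr rfl fun σ _ => ?_
  simp [Fin.prod_univ_three]

/-- sixth roots -/
noncomputable def rt6 (u : Fin 3 → ℝ) : Fin 3 → ℝ := fun i => u i ^ (1 / 6 : ℝ)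

theorem rt6_pow {u : Fin 3 → ℝ} {i : Fin 3} (h : 0 ≤ u i) : rt6 u i ^ 6 = u i := by
  unfold rt6
  rw [← Real.rpow_natCast, ← Real.rpow_mul h]
  norm_num

theorem rt6_pos {u : Fin 3 → ℝ} {i : Fin 3} (h : 0 < u i) : 0 < rt6 u i := Real.rpow_pos_of_pos h _

theorem rt6_nonneg {u : Fin 3 → ℝ} {i : Fin 3} (h : 0 ≤ u i) : 0 ≤ rt6 u i :=
  Real.rpow_nonneg h _

/-- the multiplicative functional of a likelihood vector -/
noncomputable def hh (α : Fin 3 → ℕ) (u : Fin 3 → ℝ) : ℝ := mt α (rt6 u)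

theorem hh_nonneg (α : Fin 3 → ℕ) {u : Fin 3 → ℝ} (hu : ∀ i, 0 ≤ u i) : 0 ≤ hh α u := by
  unfold hh mt
  refine mul_nonneg (by positivity) (Finset.sum_nonneg fun σ _ => Finset.prod_nonneg fun i _ => ?_)
  exact pow_nonneg (rt6_nonneg (hu _)) _

theorem amgm {a b c : ℕ} (h : a + b + c = 6) {x y z : ℝ} (hx : 0 ≤ x) (hy : 0 ≤ y) (hz : 0 ≤ z) :
    x ^ a * y ^ b * z ^ c ≤ (a * x ^ 6 + b * y ^ 6 + c * z ^ 6) / 6 := by
  have hs : ((a : ℝ) / 6) + b / 6 + c / 6 = 1 := by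
    have : ((a + b + c : ℕ) : ℝ) = 6 := by rw [h]; norm_num
    push_cast at this
    linarith
  have key : ∀ (n : ℕ) (t : ℝ), 0 ≤ t → (t ^ 6) ^ ((n : ℝ) / 6) = t ^ n := by
    intro n t ht
    rw [← Real.rpow_natCast t 6, ← Real.rpow_mul ht, ← Real.rpow_natCast t n]
    congr 1
    push_cast
    ring
  have := Real.geom_mean_le_arith_mean3_weighted (w₁ := (a : ℝ) / 6) (w₂ := (b : ℝ) / 6)
    (w₃ := (c : ℝ) / 6) (p₁ := x ^ 6) (p₂ := y ^ 6) (p₃ := z ^ 6) (by positivity) (by positivity)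
    (by positivity) (by positivity) (by positivity) (by positivity) hs
  rw [key a x hx, key b y hy, key c z hz] at this
  linarith

theorem hh_le_mass {a b c : ℕ} (h : a + b + c = 6) {u : Fin 3 → ℝ} (hu : ∀ i, 0 ≤ u i) :
    hh ![a, b, c] u ≤ mass u := by
  unfold hh
  rw [mt_three]
  have h0 := rt6_nonneg (hu 0)
  have h1 := rt6_nonneg (hu 1)
  have h2 := rt6_nonneg (hu 2)
  have e0 := rt6_pow (hu 0)
  have e1 := rt6_pow (hu 1)
  have e2 := rt6_pow (hu 2)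
  have a1 := amgm h h0 h1 h2
  have a2 := amgm h h0 h2 h1
  have a3 := amgm h h1 h0 h2
  have a4 := amgm h h1 h2 h0
  have a5 := amgm h h2 h0 h1
  have a6 := amgm h h2 h1 h0
  rw [e0, e1, e2] at a1 a2 a3 a4 a5 a6
  have hs : (a : ℝ) + b + c = 6 := by
    have : ((a + b + c : ℕ) : ℝ) = 6 := by rw [h]; norm_num
    push_cast at this
    linarith
  have hm : mass u = (u 0 + u 1 + u 2) / 3 := by
    unfold mass
    rw [Fin.sum_univ_three]
    norm_num
  rw [hm]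
  unfold S6
  have hc : (c : ℝ) = 6 - a - b := by linarith
  rw [hc] at a1 a2 a3 a4 a5 a6
  linarith

/-- the three exponent vectors -/
def al : Fin 3 → Fin 3 → ℕ := ![![4, 1, 1], ![3, 2, 1], ![2, 2, 2]]

theorem hh_al_le_mass (k : Fin 3) {u : Fin 3 → ℝ} (hu : ∀ i, 0 ≤ u i) : hh (al k) u ≤ mass u := by
  fin_cases k
  · exact hh_le_mass (by norm_num) hu
  · exact hh_le_mass (by norm_num) hu
  · exact hh_le_mass (by norm_num) hu

theorem sS_rt6 {u : Fin 3 → ℝ} (hu : ∀ i, 0 ≤ u i) :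
    sS (rt6 u 0) (rt6 u 1) (rt6 u 2) = 3 * mass u := by
  unfold sS mass
  rw [rt6_pow (hu 0), rt6_pow (hu 1), rt6_pow (hu 2), Fin.sum_univ_three]
  push_cast
  ring

theorem gB_rt6 (b : ℤ × ℤ × ℤ) {u : Fin 3 → ℝ} (hu : ∀ i, 0 ≤ u i) :
    gB kR b (rt6 u 0) (rt6 u 1) (rt6 u 2) = 6 * (b.1 * (mass u - hh (al 0) u) +
      b.2.1 * (mass u - hh (al 1) u) + b.2.2 * (mass u - hh (al 2) u)) := by
  have h0 : hh (al 0) u = 1 / 6 * S6 (fun x y z => x ^ 4 * y ^ 1 * z ^ 1) (rt6 u 0) (rt6 u 1)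
    (rt6 u 2) := mt_three 4 1 1 _
  have h1 : hh (al 1) u = 1 / 6 * S6 (fun x y z => x ^ 3 * y ^ 2 * z ^ 1) (rt6 u 0) (rt6 u 1)
    (rt6 u 2) := mt_three 3 2 1 _
  have h2 : hh (al 2) u = 1 / 6 * S6 (fun x y z => x ^ 2 * y ^ 2 * z ^ 2) (rt6 u 0) (rt6 u 1)
    (rt6 u 2) := mt_three 2 2 2 _
  unfold gB g1 g2 g3
  rw [sS_rt6 hu, h0, h1, h2]
  unfold S6
  simp only [kR]
  push_cast
  ring

/-! ### multiplicativity -/

/-- total value of the functional on an experiment -/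
noncomputable def HH (α : Fin 3 → ℕ) {X : Type*} [Fintype X] (u : X → Fin 3 → ℝ) : ℝ :=
  ∑ x, hh α (u x)

theorem HH_equiv (α : Fin 3 → ℕ) {X Y : Type*} [Fintype X] [Fintype Y] (e : X ≃ Y)
    (u : Y → Fin 3 → ℝ) : HH α (fun x => u (e x)) = HH α u :=
  Equiv.sum_comp e (fun y => hh α (u y))

theorem HH_unit (α : Fin 3 → ℕ) : HH α (fun (_ : Unit) (_ : Fin 3) => (1 : ℝ)) = 1 := by
  unfold HH hh mt rt6
  simp

theorem HH_prod (α : Fin 3 → ℕ) {X Y : Type*} [Fintype X] [Fintype Y] {u : X → Fin 3 → ℝ}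
    {v : Y → Fin 3 → ℝ} (hu : ∀ x i, 0 ≤ u x i) (hv : ∀ y i, 0 ≤ v y i) (hs : SymExp v) :
    HH α (prodExp u v) = HH α u * HH α v := by
  unfold HH
  rw [Fintype.sum_prod_type, Finset.sum_mul_sum]
  refine Finset.sum_congr rfl fun x _ => ?_
  have h1 : ∀ σ : Equiv.Perm (Fin 3), ∑ y, hh α (prodExp u v (x, y)) =
      ∑ y, mt α (fun i => rt6 (u x) i * rt6 (v y) (σ i)) := by
    intro σ
    obtain ⟨e, he⟩ := hs σ
    rw [← Equiv.sum_comp e (fun y => hh α (prodExp u v (x, y)))]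
    refine Finset.sum_congr rfl fun y _ => ?_
    unfold hh
    congr 1
    funext i
    unfold rt6 prodExp
    rw [Real.mul_rpow (hu x i) (hv _ i), he]
  have hc : (Fintype.card (Equiv.Perm (Fin 3)) : ℝ) ≠ 0 := card_perm_ne
  have h2 : (Fintype.card (Equiv.Perm (Fin 3)) : ℝ) * ∑ y, hh α (prodExp u v (x, y)) =
      ∑ σ : Equiv.Perm (Fin 3), ∑ y, mt α (fun i => rt6 (u x) i * rt6 (v y) (σ i)) := by
    rw [← Finset.sum_congr rfl fun σ _ => h1 σ]
    simp [Finset.sum_const, Finset.card_univ]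
  rw [Finset.sum_comm] at h2
  have h3 : ∀ y, ∑ σ : Equiv.Perm (Fin 3), mt α (fun i => rt6 (u x) i * rt6 (v y) (σ i)) =
      (Fintype.card (Equiv.Perm (Fin 3)) : ℝ) * (hh α (u x) * hh α (v y)) := by
    intro y
    have := mt_avg α (rt6 (u x)) (rt6 (v y))
    unfold hh
    rw [← this]
    field_simp
  rw [Finset.sum_congr rfl fun y _ => h3 y, ← Finset.mul_sum] at h2
  exact mul_left_cancel₀ hc h2

theorem HH_pi (α : Fin 3 → ℕ) :
    ∀ (k : ℕ) (X : Fin k → Type) [∀ v, Fintype (X v)] (u : ∀ v, X v → Fin 3 → ℝ),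
      (∀ v, GoodExp (u v)) → GoodExp (piExp u) ∧ HH α (piExp u) = ∏ v, HH α (u v) := by
  intro k
  induction k with
  | zero =>
    intro X _ u hg
    let e : (∀ v, X v) ≃ Unit := Equiv.ofUnique _ _
    have h1 : piExp u = (fun x => (fun (_ : Unit) (_ : Fin 3) => (1 : ℝ)) (e x)) := by
      funext x i
      simp [piExp]
    refine ⟨?_, ?_⟩
    · rw [h1]
      exact (goodExp_unit 3).comp e
    · rw [h1, HH_equiv α e (fun (_ : Unit) (_ : Fin 3) => (1 : ℝ)), HH_unit]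
      simp
  | succ k ih =>
    intro X _ u hg
    obtain ⟨g1, f1⟩ := ih (fun v => X v.succ) (fun v => u v.succ) (fun v => hg _)
    let e : (∀ v, X v) ≃ X 0 × (∀ v : Fin k, X v.succ) := (Fin.consEquiv X).symm
    have h1 : piExp u = (fun x => prodExp (u 0) (piExp (fun v : Fin k => u v.succ)) (e x)) := by
      funext x i
      simp only [piExp, prodExp, e, Fin.prod_univ_succ]
      rfl
    refine ⟨?_, ?_⟩
    · rw [h1]
      exact ((hg 0).prod g1).comp e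
    · rw [h1, HH_equiv α e, HH_prod α (fun x i => ((hg 0).pos x i).le)
        (fun x i => (g1.pos x i).le) g1.sym, Fin.prod_univ_succ, f1]

theorem HH_nonneg (α : Fin 3 → ℕ) {X : Type*} [Fintype X] {u : X → Fin 3 → ℝ}
    (hu : ∀ x i, 0 ≤ u x i) : 0 ≤ HH α u :=
  Finset.sum_nonneg fun x _ => hh_nonneg α (hu x)

theorem HH_le_one (k : Fin 3) {X : Type*} [Fintype X] {u : X → Fin 3 → ℝ}
    (hu : ∀ x i, 0 ≤ u x i) (hs : ∀ i, ∑ x, u x i = 1) : HH (al k) u ≤ 1 := by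
  rw [← sum_mass_eq_one (by norm_num) hs]
  exact Finset.sum_le_sum fun x _ => hh_al_le_mass k (hu x)

end Vale.Agent.P154.GD
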