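import Vale.Agent.P154.GD.Tree
import Vale.Agent.P154.PoissonLimit

/-!
# Descent on the `d`-ary and Poisson trees
-/

namespace Vale.Agent.P154.GD

open Finset Vale.Agent.P154 Vale.Agent.P154.Up
open scoped ENNReal

variable {κ : ℝ}

theorem gvec_zero {n : ℕ} (T : GTree n) : gvec κ T 0 = Hv κ 0 T := rfl
theorem gvec_one {n : ℕ} (T : GTree n) : gvec κ T 1 = Hv κ 1 T := rfl
theorem gvec_two {n : ℕ} (T : GTree n) : gvec κ T 2 = Hv κ 2 T := rfl
theorem gvec_three {n : ℕ} (T : GTree n) : gvec κ T 3 = Hm κ 0 T := rfl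
theorem gvec_four {n : ℕ} (T : GTree n) : gvec κ T 4 = Hm κ 1 T := rfl
theorem gvec_five {n : ℕ} (T : GTree n) : gvec κ T 5 = Hm κ 2 T := rfl
theorem gvec_six {n : ℕ} (T : GTree n) : gvec κ T 6 = Mtree 3 (-κ) T := rfl

theorem Hv_dary (hκ : 0 < κ) (hκ' : κ < 9 / 20) (i : Fin 3) (d n : ℕ) :
    Hv κ i (dary d (n + 1)) = Hm κ i (dary d n) ^ d := by
  have h : dary d (n + 1) = GTree.node d fun _ => dary d n := rfl
  rw [h, Hv_node hκ hκ']
  simp

/-- the `d`-ary tree -/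
theorem lawSeq_dary (hκ : 0 < κ) (hκ' : κ < 9 / 20) {d : ℕ} (hd : 5 ≤ d) (h : d * κ ^ 2 = 1) :
    LawSeq κ (fun x => 1 - (1 - x / d) ^ d) (fun n => gvec κ (dary d n)) := by
  have hd0 : (d : ℝ) ≠ 0 := by
    have : (5 : ℝ) ≤ d := by exact_mod_cast hd
    linarith
  have hk : κ ^ 2 = 1 / d := by field_simp; linarith
  have key : ∀ (i : Fin 3) (n : ℕ), 1 - Hv κ i (dary d (n + 1)) =
      1 - (1 - (1 - Hm κ i (dary d n)) / κ ^ 2 / d) ^ d := by
    intro i n
    rw [Hv_dary hκ hκ', hk]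
    have : 1 - (1 - Hm κ i (dary d n)) / (1 / (d : ℝ)) / d = Hm κ i (dary d n) := by
      field_simp
      ring
    rw [this]
  exact
    { mem := fun n i => gvec_mem hκ hκ' _ i
      lin := fun c C hT n => hT n (dary d (n + 1))
      rec0 := key 0
      rec1 := key 1
      rec2 := key 2 }

theorem gd_dary {d : ℕ} (hd : 5 ≤ d) (hκ : 0 < κ) (h : d * κ ^ 2 = 1) :
    ∃ n, Mtree 3 (-κ) (dary d n) ≤ 23 / 1000 := by
  have hd5 : (5 : ℝ) ≤ d := by exact_mod_cast hd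
  have hκ' : κ < 9 / 20 := by
    by_contra hc
    push Not at hc
    have : (9 / 20) ^ 2 ≤ κ ^ 2 := pow_le_pow_left₀ (by norm_num) hc 2
    nlinarith
  exact descent hκ hκ' (mode_dary hd) (lawSeq_dary hκ hκ' hd h)

/-- average over the Poisson tree -/
noncomputable def pavg (d : ℝ) (n : ℕ) (g : GTree n → ℝ) : ℝ :=
  ∑' T : GTree n, poissonWeight d T * g T

theorem pavg_mem {d : ℝ} (hd : 0 ≤ d) {n : ℕ} {g : GTree n → ℝ} (h0 : ∀ T, 0 ≤ g T)
    (h1 : ∀ T, g T ≤ 1) : 0 ≤ pavg d n g ∧ pavg d n g ≤ 1 := by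
  refine ⟨tsum_nonneg fun T => mul_nonneg (poissonWeight_nonneg hd T) (h0 T), ?_⟩
  rw [← poissonWeight_tsum hd n]
  exact (summable_weight hd n h0 h1).tsum_le_tsum
    (fun T => mul_le_of_le_one_right (poissonWeight_nonneg hd T) (h1 T))
    (poissonWeight_summable hd n)

theorem pavg_prod {d : ℝ} (hd : 0 ≤ d) (n : ℕ) {F : GTree (n + 1) → ℝ} {G : GTree n → ℝ}
    (hF0 : ∀ T, 0 ≤ F T) (hF1 : ∀ T, F T ≤ 1) (hG0 : ∀ T, 0 ≤ G T) (hG1 : ∀ T, G T ≤ 1)
    (h : ∀ k (c : Fin k → GTree n), F (.node k c) = ∏ v, G (c v)) :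
    pavg d (n + 1) F = Real.exp (-(d * (1 - pavg d n G))) := by
  have h1 : ENNReal.ofReal (pavg d (n + 1) F) = treeE d (n + 1) (fun T => ENNReal.ofReal (F T)) :=
    ofReal_tsum_weight hd (n + 1) F hF0 hF1
  have h2 : ENNReal.ofReal (pavg d n G) = treeE d n (fun T => ENNReal.ofReal (G T)) :=
    ofReal_tsum_weight hd n G hG0 hG1
  have hG := (pavg_mem hd hG0 hG1).1
  have hF := (pavg_mem hd hF0 hF1).1
  rw [treeE_prod_children hd n (fun T => ENNReal.ofReal (F T)) (fun T => ENNReal.ofReal (G T))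
    (fun k c => by rw [h k c, ENNReal.ofReal_prod_of_nonneg (fun v _ => hG0 (c v))]),
    ← h2, pk_gen hd hG] at h1
  exact (ENNReal.ofReal_eq_ofReal_iff hF (Real.exp_nonneg _)).1 h1

theorem pavg_lin {d : ℝ} (hd : 0 ≤ d) {n : ℕ} {r : ℕ} {g : GTree n → Fin r → ℝ}
    (h0 : ∀ T i, 0 ≤ g T i) (h1 : ∀ T i, g T i ≤ 1) (c : Fin r → ℝ) {C : ℝ}
    (h : ∀ T, ∑ i, c i * g T i ≤ C) : ∑ i, c i * pavg d n (fun T => g T i) ≤ C := by
  have hs : ∀ i, HasSum (fun T : GTree n => c i * (poissonWeight d T * g T i))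
      (c i * pavg d n (fun T => g T i)) := fun i =>
    (summable_weight hd n (fun T => h0 T i) (fun T => h1 T i)).hasSum.mul_left (c i)
  have hs2 := hasSum_sum (s := (univ : Finset (Fin r))) fun i _ => hs i
  have hs3 : HasSum (fun T : GTree n => poissonWeight d T * C) C := by
    have := (poissonWeight_summable hd n).hasSum.mul_right C
    rwa [poissonWeight_tsum hd n, one_mul] at this
  refine hasSum_le (fun T => ?_) hs2 hs3
  have := mul_le_mul_of_nonneg_left (h T) (poissonWeight_nonneg hd T)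
  refine le_trans (le_of_eq ?_) this
  rw [Finset.mul_sum]
  exact Finset.sum_congr rfl fun i _ => by ring

/-- the Poisson tree -/
theorem lawSeq_poisson (hκ : 0 < κ) (hκ' : κ < 9 / 20) {d : ℝ} (h : d * κ ^ 2 = 1) :
    LawSeq κ (fun x => 1 - Real.exp (-x)) (fun n i => pavg d n (fun T => gvec κ T i)) := by
  have hκ2 : 0 < κ ^ 2 := by positivity
  have hd0 : 0 < d := by
    by_contra hc
    push Not at hc
    nlinarith
  have key : ∀ (i : Fin 3) (n : ℕ), 1 - pavg d (n + 1) (fun T => Hv κ i T) =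
      1 - Real.exp (-((1 - pavg d n (fun T => Hm κ i T)) / κ ^ 2)) := by
    intro i n
    rw [pavg_prod hd0.le n (F := fun T => Hv κ i T) (G := fun T => Hm κ i T)
      (fun T => (Hv_mem hκ hκ' i T).1) (fun T => (Hv_mem hκ hκ' i T).2)
      (fun T => (Hm_mem hκ hκ' i T).1) (fun T => (Hm_mem hκ hκ' i T).2)
      (fun k c => Hv_node hκ hκ' i k c)]
    have : d = 1 / κ ^ 2 := by field_simp; linarith
    rw [this]
    congr 3
    field_simp
  exact
    { mem := fun n i => pavg_mem hd0.le (fun T => (gvec_mem hκ hκ' T i).1)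
        (fun T => (gvec_mem hκ hκ' T i).2)
      lin := fun c C hT n => pavg_lin hd0.le (fun T i => (gvec_mem hκ hκ' T i).1)
        (fun T i => (gvec_mem hκ hκ' T i).2) c (fun T => hT n T)
      rec0 := key 0
      rec1 := key 1
      rec2 := key 2 }

theorem gd_poisson (hκ : 0 < κ) (hκ' : κ < 9 / 20) {d : ℝ} (h : d * κ ^ 2 = 1) :
    ∃ n, ∑' T : GTree n, poissonWeight d T * Mtree 3 (-κ) T ≤ 23 / 1000 :=
  descent hκ hκ' mode_poisson (lawSeq_poisson hκ hκ' h)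

end Vale.Agent.P154.GD
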