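import Vale.Agent.P154.GD.Bonf

/-!
# The scalar inequality on one interval
-/

namespace Vale.Agent.P154.GD

theorem dH_succ (Q : ℝ) (m j : ℕ) :
    dH kR Q (m + 1) j = (49 * ((j : ℝ) + 2)) * Q * dH kR Q m (j + 1) := by
  rw [dH]
  simp only [kR, Int.ofNat_eq_natCast, Int.cast_natCast]
  push_cast
  ring

theorem nH_succ (Q V Z X : ℝ) (m j : ℕ) :
    nH kR Q V Z X (m + 1) j = (49 * ((j : ℝ) + 2)) * Q * dH kR Q m (j + 1) -
      (49 * V - 10 * ((j : ℝ) + 1) * Z) * X * nH kR Q V Z X m (j + 1) := by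
  rw [nH]
  simp only [kR, Int.ofNat_eq_natCast, Int.cast_natCast]
  push_cast
  ring

theorem tH_succ (ε x : ℝ) (m j : ℕ) :
    tH ε x (m + 1) j = 1 - (1 - (j + 1) * ε) * x / (j + 2) * tH ε x m (j + 1) := rfl

theorem nH_eq {V W : ℝ} (hV : 0 < V) (hW : 0 < W) (Z X : ℝ) (m : ℕ) : ∀ j : ℕ,
    nH kR (V * W) V Z X m j = dH kR (V * W) m j * tH (10 * Z / (49 * V)) (X / W) m j := by
  induction m with
  | zero => intro j; simp [nH, dH, tH]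
  | succ m ih =>
    intro j
    rw [nH_succ, dH_succ, tH_succ, ih (j + 1)]
    have h2 : (j : ℝ) + 2 ≠ 0 := by positivity
    generalize dH kR (V * W) m (j + 1) = D
    generalize tH (10 * Z / (49 * V)) (X / W) m (j + 1) = T
    field_simp

theorem dH_eq (Q : ℝ) (m : ℕ) : ∀ j : ℕ,
    dH kR Q m j * ((j + 1).factorial : ℝ) = ((j + m + 1).factorial : ℝ) * 49 ^ m * Q ^ m := by
  induction m with
  | zero => intro j; simp [dH]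
  | succ m ih =>
    intro j
    rw [dH_succ]
    have h := ih (j + 1)
    have e1 : ((j + 1 + 1).factorial : ℝ) = (j + 2) * ((j + 1).factorial : ℝ) := by
      rw [Nat.factorial_succ (j + 1)]
      push_cast; ring
    have e2 : j + 1 + m + 1 = j + (m + 1) + 1 := by ring
    rw [e1, e2] at h
    rw [pow_succ (49 : ℝ), pow_succ Q]
    linear_combination 49 * Q * h

theorem dH_zero (Q : ℝ) (m : ℕ) :
    dH kR Q m 0 = ((m + 1).factorial : ℝ) * 49 ^ m * Q ^ m := by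
  have := dH_eq Q m 0
  simpa using this

/-- partial sums -/
noncomputable def TT (K : ℕ) (ε x : ℝ) : ℝ := x * tH ε x (K - 1) 0

theorem F2a_eq (K : ℕ) (cst : ℤ)
    {c A B1 B2 B3 X V W1 W3 W4 X3 X4 N1 N0 N2 σ u1 u2 q0 q1 q2 F : ℝ} (hc0 : c = 1000)
    (hX : X = c * W1 * σ) (h1 : X * X3 = c * c * W1 * W3 * u1)
    (h2 : X * X4 = c * c * W1 * W4 * u2)
    (hc : (cst : ℝ) = (K + 2) * F * 49 ^ (K + 1))
    (n0 : N0 = (K + 2) * F * 49 ^ (K + 1) * (V * (c * W1)) ^ (K + 1) * q0)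
    (n1 : N1 = (K + 2) * F * 49 ^ (K + 1) * (V * (c * c * W1 * W3)) ^ (K + 1) * q1)
    (n2 : N2 = F * 49 ^ K * (V * (c * c * W1 * W4)) ^ K * q2) :
    F2a kR K cst A B1 B2 B3 X V W1 W3 W4 X3 X4 N1 N0 N2 =
      ((cst : ℝ) * V ^ K * (c * c) ^ (K + 2) * W1 ^ (K + 1) * W3 ^ (K + 2) * W4 ^ (K + 2)) *
      (A + B3 * σ + B1 * u1 + B2 * u2 + V * W1 *
        (-(5000 * σ ^ 2) - lamZ.1 * (u1 * q1) - lamZ.2.2 * (σ * q0) - lamZ.2.1 * (u2 * q2))) := by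
  unfold F2a
  have e0 : kR (Int.ofNat (49 * (K + 2))) = 49 * ((K : ℝ) + 2) := by
    simp only [kR, Int.ofNat_eq_natCast, Int.cast_natCast]
    push_cast
    ring
  have e1 : kR (10 ^ (6 * (K + 1))) = (c * c) ^ (K + 1) := by
    rw [hc0, show (1000 : ℝ) * 1000 = 10 ^ 6 by norm_num, ← pow_mul]
    simp only [kR, Int.cast_pow, Int.cast_ofNat]
  have e2 : kR (10 ^ (3 * (K + 2))) = c ^ (K + 2) := by
    rw [hc0, show (1000 : ℝ) = 10 ^ 3 by norm_num, ← pow_mul]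
    simp only [kR, Int.cast_pow, Int.cast_ofNat]
  have e3 : kR (10 ^ 6) = c * c := by
    rw [hc0]
    simp only [kR, Int.cast_pow, Int.cast_ofNat]
    norm_num
  have e4 : kR 1000 = c := by rw [hc0]; simp [kR]
  have e5 : kR 5000 = 5000 := by simp [kR]
  rw [h1, h2, n0, n1, n2, hX]
  rw [e0, e1, e2, e3, e4, e5]
  simp only [kR]
  rw [hc]
  generalize (lamZ.1 : ℝ) = l1
  generalize (lamZ.2.1 : ℝ) = l2
  generalize (lamZ.2.2 : ℝ) = l3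
  ring

theorem step2_end {A B1 B2 B3 σ u1 u2 Φ z1 z2 l1 l2 l3 q0 q1 q2 a00 a10 a01 a11 p00 p10 p01 p11
    r00 r10 r01 r11 s00 s10 s01 s11 : ℝ} (hz1 : 0 ≤ z1) (hz2 : 0 ≤ z2)
    (c00 : a00 + (p00 * u1 + r00 * u2 + s00 * σ) ≤ Φ)
    (c10 : a10 + (p10 * u1 + r10 * u2 + s10 * σ) ≤ Φ)
    (c01 : a01 + (p01 * u1 + r01 * u2 + s01 * σ) ≤ Φ)
    (c11 : a11 + (p11 * u1 + r11 * u2 + s11 * σ) ≤ Φ)
    (hA : A = (a00 + a10 * z1) + z2 * (a01 + a11 * z1))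
    (hB1 : B1 = (p00 + p10 * z1) + z2 * (p01 + p11 * z1))
    (hB2 : B2 = (r00 + r10 * z1) + z2 * (r01 + r11 * z1))
    (hB3 : B3 = (s00 + s10 * z1) + z2 * (s01 + s11 * z1))
    (key : 0 ≤ A + B3 * σ + B1 * u1 + B2 * u2 + (1 + z2) * (1 + z1) *
      (-(5000 * σ ^ 2) - l1 * (u1 * q1) - l3 * (σ * q0) - l2 * (u2 * q2))) :
    l1 * (u1 * q1) + l2 * (u2 * q2) + l3 * (σ * q0) + 5000 * σ ^ 2 ≤ Φ := by
  have a1 := mul_le_mul_of_nonneg_left c10 hz1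
  have a2 := mul_le_mul_of_nonneg_left c01 hz2
  have a3 := mul_le_mul_of_nonneg_left c11 (mul_nonneg hz1 hz2)
  have e : A + B3 * σ + B1 * u1 + B2 * u2 = (a00 + (p00 * u1 + r00 * u2 + s00 * σ)) +
      z1 * (a10 + (p10 * u1 + r10 * u2 + s10 * σ)) +
      z2 * (a01 + (p01 * u1 + r01 * u2 + s01 * σ)) +
      z1 * z2 * (a11 + (p11 * u1 + r11 * u2 + s11 * σ)) := by
    rw [hA, hB1, hB2, hB3]; ring
  have hw : 0 < (1 + z2) * (1 + z1) := by positivity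
  have key4 : 0 ≤ (1 + z2) * (1 + z1) * (Φ - (l1 * (u1 * q1) + l2 * (u2 * q2) +
      l3 * (σ * q0) + 5000 * σ ^ 2)) := by
    have e2 : (1 + z2) * (1 + z1) * (Φ - (l1 * (u1 * q1) + l2 * (u2 * q2) +
      l3 * (σ * q0) + 5000 * σ ^ 2)) = (Φ + z1 * Φ + z2 * Φ + z1 * z2 * Φ) +
      (1 + z2) * (1 + z1) *
        (-(5000 * σ ^ 2) - l1 * (u1 * q1) - l3 * (σ * q0) - l2 * (u2 * q2)) := by ring
    rw [e2]
    rw [e] at key
    linarith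
  have := nonneg_of_mul_nonneg_right key4 hw
  linarith

theorem step2 {K : ℕ} {cst : ℤ} {u v : Vx} (hc : cst = (K + 2).factorial * 49 ^ (K + 1))
    (h : chk2 K cst u v = true) {σ ε u1 u2 Φ : ℝ} (hσ0 : 0 < σ) (hs : (u.s : ℝ) ≤ 1000 * σ)
    (hs' : 1000 * σ < v.s) (hε0 : 0 ≤ ε) (hε : 49 * ε < 10)
    (h1 : 737 * σ ≤ 1000 * u1) (h1' : 1000 * u1 < 761 * σ)
    (h2 : 901 * σ ≤ 1000 * u2) (h2' : 1000 * u2 < 924 * σ)
    (c00 : u.e0.a + (u.e0.b.1 * u1 + u.e0.b.2.1 * u2 + u.e0.b.2.2 * σ) ≤ Φ)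
    (c10 : v.e0.a + (v.e0.b.1 * u1 + v.e0.b.2.1 * u2 + v.e0.b.2.2 * σ) ≤ Φ)
    (c01 : u.e1.a + (u.e1.b.1 * u1 + u.e1.b.2.1 * u2 + u.e1.b.2.2 * σ) ≤ Φ)
    (c11 : v.e1.a + (v.e1.b.1 * u1 + v.e1.b.2.1 * u2 + v.e1.b.2.2 * σ) ≤ Φ) :
    lamZ.1 * (u1 * tH ε u1 (K + 1) 0) + lamZ.2.1 * (u2 * tH ε u2 K 0) +
      lamZ.2.2 * (σ * tH ε σ (K + 1) 0) + 5000 * σ ^ 2 ≤ Φ := by
  obtain ⟨z1, hz1, e1⟩ : ∃ z1 : ℝ, 0 ≤ z1 ∧ (u.s : ℝ) + v.s * z1 = 1000 * (1 + z1) * σ := by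
    have h3 : 0 < v.s - 1000 * σ := by linarith
    refine ⟨(1000 * σ - u.s) / (v.s - 1000 * σ), div_nonneg (by linarith) h3.le, ?_⟩
    field_simp
    ring
  obtain ⟨z2, hz2, e2⟩ : ∃ z2 : ℝ, 0 ≤ z2 ∧ 10 * z2 / (49 * (1 + z2)) = ε := by
    have h3 : 0 < 10 - 49 * ε := by linarith
    refine ⟨49 * ε / (10 - 49 * ε), div_nonneg (by linarith) h3.le, ?_⟩
    field_simp
    ring
  obtain ⟨z3, hz3, e3⟩ : ∃ z3 : ℝ, 0 ≤ z3 ∧ (737 + 761 * z3) * σ = 1000 * (1 + z3) * u1 := by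
    have h3 : 0 < 761 * σ - 1000 * u1 := by linarith
    refine ⟨(1000 * u1 - 737 * σ) / (761 * σ - 1000 * u1), div_nonneg (by linarith) h3.le, ?_⟩
    field_simp
    ring
  obtain ⟨z4, hz4, e4⟩ : ∃ z4 : ℝ, 0 ≤ z4 ∧ (901 + 924 * z4) * σ = 1000 * (1 + z4) * u2 := by
    have h3 : 0 < 924 * σ - 1000 * u2 := by linarith
    refine ⟨(1000 * u2 - 901 * σ) / (924 * σ - 1000 * u2), div_nonneg (by linarith) h3.le, ?_⟩
    field_simp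
    ring
  have h5 := chk2_sound h hz1 hz2 hz3 hz4
  have w1 : 0 < 1 + z1 := by linarith
  have w2 : 0 < 1 + z2 := by linarith
  have w3 : 0 < 1 + z3 := by linarith
  have w4 : 0 < 1 + z4 := by linarith
  have hfac : ((K + 2).factorial : ℝ) = (K + 2) * ((K + 1).factorial : ℝ) := by
    rw [Nat.factorial_succ (K + 1)]
    push_cast; ring
  have hcst : (cst : ℝ) = (K + 2) * ((K + 1).factorial : ℝ) * 49 ^ (K + 1) := by
    rw [hc]; push_cast; rw [hfac]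
  obtain ⟨c, hc1⟩ : ∃ c : ℝ, c = 1000 := ⟨_, rfl⟩
  have hc6 : (10 : ℝ) ^ 6 = c * c := by rw [hc1]; norm_num
  have hcp : 0 < c := by rw [hc1]; norm_num
  have hX : kR (Int.ofNat u.s) + kR (Int.ofNat v.s) * z1 = c * (kR 1 + z1) * σ := by
    simp only [kR, Int.ofNat_eq_natCast, Int.cast_natCast, Int.cast_one]
    rw [hc1]
    exact e1
  have k1 : kR 1 = 1 := by simp [kR]
  have k6 : kR (10 ^ 6) = c * c := by
    rw [← hc6]
    simp only [kR, Int.cast_pow, Int.cast_ofNat]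
  have k3 : kR 1000 = c := by rw [hc1]; simp [kR]
  have x1 : (kR (Int.ofNat u.s) + kR (Int.ofNat v.s) * z1) * (kR 737 + kR 761 * z3) =
      c * c * (kR 1 + z1) * (kR 1 + z3) * u1 := by
    rw [hX, k1, hc1]
    simp only [kR, Int.cast_ofNat]
    linear_combination 1000 * (1 + z1) * e3
  have x2 : (kR (Int.ofNat u.s) + kR (Int.ofNat v.s) * z1) * (kR 901 + kR 924 * z4) =
      c * c * (kR 1 + z1) * (kR 1 + z4) * u2 := by
    rw [hX, k1, hc1]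
    simp only [kR, Int.cast_ofNat]
    linear_combination 1000 * (1 + z1) * e4
  have n0 : nH kR ((kR 1 + z2) * (kR 1000 * (kR 1 + z1))) (kR 1 + z2) z2
      (kR (Int.ofNat u.s) + kR (Int.ofNat v.s) * z1) (K + 1) 0 =
      (K + 2) * ((K + 1).factorial : ℝ) * 49 ^ (K + 1) *
        ((kR 1 + z2) * (c * (kR 1 + z1))) ^ (K + 1) * tH ε σ (K + 1) 0 := by
    rw [hX, k1, k3, nH_eq w2 (by positivity), dH_zero, e2,
      mul_div_cancel_left₀ σ (by positivity), hfac]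
  have n1 : nH kR ((kR 1 + z2) * (kR (10 ^ 6) * (kR 1 + z1) * (kR 1 + z3))) (kR 1 + z2) z2
      ((kR (Int.ofNat u.s) + kR (Int.ofNat v.s) * z1) * (kR 737 + kR 761 * z3)) (K + 1) 0 =
      (K + 2) * ((K + 1).factorial : ℝ) * 49 ^ (K + 1) *
        ((kR 1 + z2) * (c * c * (kR 1 + z1) * (kR 1 + z3))) ^ (K + 1) * tH ε u1 (K + 1) 0 := by
    rw [x1, k1, k6, nH_eq w2 (by positivity), dH_zero, e2,
      mul_div_cancel_left₀ u1 (by positivity), hfac]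
  have n2 : nH kR ((kR 1 + z2) * (kR (10 ^ 6) * (kR 1 + z1) * (kR 1 + z4))) (kR 1 + z2) z2
      ((kR (Int.ofNat u.s) + kR (Int.ofNat v.s) * z1) * (kR 901 + kR 924 * z4)) K 0 =
      ((K + 1).factorial : ℝ) * 49 ^ K *
        ((kR 1 + z2) * (c * c * (kR 1 + z1) * (kR 1 + z4))) ^ K * tH ε u2 K 0 := by
    rw [x2, k1, k6, nH_eq w2 (by positivity), dH_zero, e2,
      mul_div_cancel_left₀ u2 (by positivity)]
  unfold F2 at h5
  rw [F2a_eq K cst hc1 hX x1 x2 hcst n0 n1 n2] at h5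
  rw [k1] at h5
  have hA : itp kR u.e0.a v.e0.a u.e1.a v.e1.a z1 z2 =
      ((u.e0.a : ℝ) + v.e0.a * z1) + z2 * (u.e1.a + v.e1.a * z1) := rfl
  have hB3 : itp kR u.e0.b.2.2 v.e0.b.2.2 u.e1.b.2.2 v.e1.b.2.2 z1 z2 =
      ((u.e0.b.2.2 : ℝ) + v.e0.b.2.2 * z1) + z2 * (u.e1.b.2.2 + v.e1.b.2.2 * z1) := rfl
  have hB2 : itp kR u.e0.b.2.1 v.e0.b.2.1 u.e1.b.2.1 v.e1.b.2.1 z1 z2 =
      ((u.e0.b.2.1 : ℝ) + v.e0.b.2.1 * z1) + z2 * (u.e1.b.2.1 + v.e1.b.2.1 * z1) := rfl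
  have hB1 : itp kR u.e0.b.1 v.e0.b.1 u.e1.b.1 v.e1.b.1 z1 z2 =
      ((u.e0.b.1 : ℝ) + v.e0.b.1 * z1) + z2 * (u.e1.b.1 + v.e1.b.1 * z1) := rfl
  set A := itp kR u.e0.a v.e0.a u.e1.a v.e1.a z1 z2
  set B3 := itp kR u.e0.b.2.2 v.e0.b.2.2 u.e1.b.2.2 v.e1.b.2.2 z1 z2
  set B2 := itp kR u.e0.b.2.1 v.e0.b.2.1 u.e1.b.2.1 v.e1.b.2.1 z1 z2
  set B1 := itp kR u.e0.b.1 v.e0.b.1 u.e1.b.1 v.e1.b.1 z1 z2
  set q0 := tH ε σ (K + 1) 0
  set q1 := tH ε u1 (K + 1) 0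
  set q2 := tH ε u2 K 0
  have hpos : 0 < (cst : ℝ) * (1 + z2) ^ K * (c * c) ^ (K + 2) * (1 + z1) ^ (K + 1) *
      (1 + z3) ^ (K + 2) * (1 + z4) ^ (K + 2) := by
    rw [hcst]; positivity
  have key2 := nonneg_of_mul_nonneg_right h5 hpos
  exact step2_end hz1 hz2 c00 c10 c01 c11 hA hB1 hB2 hB3 key2

end Vale.Agent.P154.GD
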