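import Vale.Agent.P154.Kron

/-!
# Positivity on plane cones by subdivision
-/

namespace Vale.Agent.P154.GD

/-- integer vectors -/
abbrev V3 := ℕ × ℕ × ℕ

/-- subdivision trees -/
inductive Tri
  | leaf
  | node (e m n g : ℕ) (N : V3) (l r : Tri)

/-- `m A + n B = g N` -/
def lin (m : ℕ) (A : V3) (n : ℕ) (B : V3) (g : ℕ) (N : V3) : Bool :=
  Nat.beq (m * A.1 + n * B.1) (g * N.1) && Nat.beq (m * A.2.1 + n * B.2.1) (g * N.2.1) &&
    Nat.beq (m * A.2.2 + n * B.2.2) (g * N.2.2)

/-- check a predicate on all cones of a subdivision -/
def Tri.chk (f : V3 → V3 → V3 → Bool) : Tri → V3 → V3 → V3 → Bool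
  | .leaf, A, B, C => f A B C
  | .node e m n g N l r, A, B, C =>
    Nat.blt 0 m && (Nat.blt 0 n && (Nat.blt 0 g &&
      (match e with
       | 0 => lin m A n C g N && (l.chk f A B N && r.chk f N B C)
       | 1 => lin m B n C g N && (l.chk f A B N && r.chk f A N C)
       | _ => lin m A n B g N && (l.chk f A N C && r.chk f N B C))))

/-- the predicate holds on the cone spanned by three vectors -/
def Cone (P : ℝ → ℝ → ℝ → Prop) (A B C : V3) : Prop :=
  ∀ a b c : ℝ, 0 ≤ a → 0 ≤ b → 0 < c →
    P (a * A.1 + b * B.1 + c * C.1) (a * A.2.1 + b * B.2.1 + c * C.2.1)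
      (a * A.2.2 + b * B.2.2 + c * C.2.2)

theorem lin_cast {m : ℕ} {A : V3} {n : ℕ} {B : V3} {g : ℕ} {N : V3} (h : lin m A n B g N = true) :
    (m : ℝ) * A.1 + n * B.1 = g * N.1 ∧ (m : ℝ) * A.2.1 + n * B.2.1 = g * N.2.1 ∧
      (m : ℝ) * A.2.2 + n * B.2.2 = g * N.2.2 := by
  simp only [lin, Bool.and_eq_true, Nat.beq_eq] at h
  obtain ⟨⟨h1, h2⟩, h3⟩ := h
  exact ⟨by exact_mod_cast h1, by exact_mod_cast h2, by exact_mod_cast h3⟩

theorem Tri.sound {P : ℝ → ℝ → ℝ → Prop} {f : V3 → V3 → V3 → Bool}
    (hf : ∀ A B C, f A B C = true → Cone P A B C) (t : Tri) :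
    ∀ A B C, t.chk f A B C = true → Cone P A B C := by
  induction t with
  | leaf => exact hf
  | node e m n g N l r ihl ihr =>
    intro A B C h
    simp only [Tri.chk, Bool.and_eq_true] at h
    obtain ⟨h1, h2, h3, h4⟩ := h
    have hm : (0 : ℝ) < m := by
      have : 0 < m := by simpa using h1
      exact_mod_cast this
    have hn : (0 : ℝ) < n := by
      have : 0 < n := by simpa using h2
      exact_mod_cast this
    have hg : (0 : ℝ) < g := by
      have : 0 < g := by simpa using h3
      exact_mod_cast this
    intro a b c ha hb hc
    match e, h4 with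
    | 0, h4 =>
      simp only [Bool.and_eq_true] at h4
      obtain ⟨h5, h6, h7⟩ := h4
      obtain ⟨e1, e2, e3⟩ := lin_cast h5
      by_cases hcase : c * m ≤ a * n
      · have := ihl A B N h6 (a - c * m / n) b (c * g / n)
          (by rw [sub_nonneg, div_le_iff₀ hn]; exact hcase) hb (by positivity)
        convert this using 1 <;> field_simp
        · linear_combination c * e1
        · linear_combination c * e2
        · linear_combination c * e3
      · push Not at hcase
        have := ihr N B C h7 (a * g / m) b (c - a * n / m) (by positivity) hb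
          (by rw [sub_pos, div_lt_iff₀ hm]; exact hcase)
        convert this using 1 <;> field_simp
        · linear_combination a * e1
        · linear_combination a * e2
        · linear_combination a * e3
    | 1, h4 =>
      simp only [Bool.and_eq_true] at h4
      obtain ⟨h5, h6, h7⟩ := h4
      obtain ⟨e1, e2, e3⟩ := lin_cast h5
      by_cases hcase : c * m ≤ b * n
      · have := ihl A B N h6 a (b - c * m / n) (c * g / n) ha
          (by rw [sub_nonneg, div_le_iff₀ hn]; exact hcase) (by positivity)
        convert this using 1 <;> field_simp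
        · linear_combination c * e1
        · linear_combination c * e2
        · linear_combination c * e3
      · push Not at hcase
        have := ihr A N C h7 a (b * g / m) (c - b * n / m) ha (by positivity)
          (by rw [sub_pos, div_lt_iff₀ hm]; exact hcase)
        convert this using 1 <;> field_simp
        · linear_combination b * e1
        · linear_combination b * e2
        · linear_combination b * e3
    | e + 2, h4 =>
      simp only [Bool.and_eq_true] at h4
      obtain ⟨h5, h6, h7⟩ := h4
      obtain ⟨e1, e2, e3⟩ := lin_cast h5
      by_cases hcase : b * m ≤ a * n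
      · have := ihl A N C h6 (a - b * m / n) (b * g / n) c
          (by rw [sub_nonneg, div_le_iff₀ hn]; exact hcase) (by positivity) hc
        convert this using 1 <;> field_simp
        · linear_combination b * e1
        · linear_combination b * e2
        · linear_combination b * e3
      · push Not at hcase
        have := ihr N B C h7 (a * g / m) (b - a * n / m) c (by positivity)
          (by rw [sub_nonneg, div_le_iff₀ hm]; exact hcase.le) hc
        convert this using 1 <;> field_simp
        · linear_combination a * e1
        · linear_combination a * e2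
        · linear_combination a * e3

end Vale.Agent.P154.GD
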